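import Mathlib

/-!
# A trapping-box lemma for autonomous ODEs on `ι → ℝ`
-/

namespace Vale.Agent.Lib.P072

open Set Filter Topology
open scoped NNReal

variable {ι : Type*} [Fintype ι]

/-- Coordinatewise clamping to the box `[l, u]`. -/
noncomputable def clamp (l u : ι → ℝ) (x : ι → ℝ) : ι → ℝ :=
  fun i => max (l i) (min (u i) (x i))

omit [Fintype ι] in
lemma clamp_mem {l u : ι → ℝ} (hlu : l ≤ u) (x : ι → ℝ) : clamp l u x ∈ Icc l u := by
  constructor
  · intro i; exact le_max_left _ _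
  · intro i; exact max_le (hlu i) (min_le_left _ _)

omit [Fintype ι] in
lemma clamp_eq_self {l u x : ι → ℝ} (hx : x ∈ Icc l u) : clamp l u x = x := by
  funext i
  simp only [clamp]
  rw [min_eq_right (hx.2 i), max_eq_right (hx.1 i)]

lemma clamp_lipschitz (l u : ι → ℝ) : LipschitzWith 1 (clamp l u) := by
  apply LipschitzWith.of_dist_le_mul
  intro x y
  rw [dist_pi_le_iff (by positivity)]
  intro i
  have h : LipschitzWith 1 (fun z : ι → ℝ => max (l i) (min (u i) (z i))) :=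
    ((LipschitzWith.eval i).const_min (u i)).const_max (l i)
  exact h.dist_le_mul x y

section Exist

variable {E : Type*} [NormedAddCommGroup E] [NormedSpace ℝ E] [CompleteSpace E]

lemma exists_sol_Icc (g : E → E) (K M : ℝ≥0) (hg : LipschitzWith K g) (hM : ∀ x, ‖g x‖ ≤ M)
    (x0 : E) (T : ℝ) (hT : 0 ≤ T) :
    ∃ α : ℝ → E, α 0 = x0 ∧ ∀ t ∈ Icc 0 T, HasDerivWithinAt α (g (α t)) (Icc 0 T) t := by
  have h0 : (0 : ℝ) ∈ Icc 0 T := ⟨le_rfl, hT⟩
  have hPL : IsPicardLindelof (fun _ => g) (⟨0, h0⟩ : Icc (0 : ℝ) T) x0 (M * ⟨T, hT⟩) 0 M K := by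
    refine ⟨fun t _ => hg.lipschitzOnWith, fun x _ => continuousOn_const, fun t _ x _ => hM x, ?_⟩
    simp only [sub_zero, sub_self, max_eq_left hT, NNReal.coe_zero]
    exact le_rfl
  obtain ⟨α, h1, h2⟩ := hPL.exists_eq_forall_mem_Icc_hasDerivWithinAt₀
  exact ⟨α, h1, h2⟩

omit [CompleteSpace E] in
lemma hasDerivWithinAt_Ici_of_Icc {α : ℝ → E} {v : E} {a T t : ℝ}
    (h : HasDerivWithinAt α v (Icc a T) t) (ht : t ∈ Ico a T) :
    HasDerivWithinAt α v (Ici t) t :=
  h.mono_of_mem_nhdsWithin (Icc_mem_nhdsGE_of_mem ht)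

lemma exists_sol_Ici (g : E → E) (K M : ℝ≥0) (hg : LipschitzWith K g) (hM : ∀ x, ‖g x‖ ≤ M)
    (x0 : E) :
    ∃ α : ℝ → E, α 0 = x0 ∧ ∀ t ∈ Ici (0 : ℝ), HasDerivWithinAt α (g (α t)) (Ici 0) t := by
  have hex : ∀ n : ℕ, ∃ α : ℝ → E, α 0 = x0 ∧
      ∀ t ∈ Icc (0 : ℝ) (n + 1), HasDerivWithinAt α (g (α t)) (Icc 0 (n + 1)) t :=
    fun n => exists_sol_Icc g K M hg hM x0 (n + 1) (by positivity)
  choose α hα0 hα using hex
  have huniq : ∀ n m : ℕ, n ≤ m → EqOn (α n) (α m) (Icc 0 (n + 1)) := by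
    intro n m hnm
    have hnm' : (n : ℝ) + 1 ≤ m + 1 := by
      have : (n : ℝ) ≤ m := by exact_mod_cast hnm
      linarith
    apply ODE_solution_unique (v := fun _ => g) (K := K) (fun _ => hg)
    · exact fun t ht => (hα n t ht).continuousWithinAt
    · exact fun t ht => hasDerivWithinAt_Ici_of_Icc (hα n t ⟨ht.1, ht.2.le⟩) ht
    · exact fun t ht => ((hα m t ⟨ht.1, ht.2.trans hnm'⟩).continuousWithinAt).mono
        (Icc_subset_Icc le_rfl hnm')
    · exact fun t ht => hasDerivWithinAt_Ici_of_Icc (hα m t ⟨ht.1, ht.2.le.trans hnm'⟩)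
        ⟨ht.1, ht.2.trans_le hnm'⟩
    · rw [hα0, hα0]
  refine ⟨fun t => α ⌊t⌋₊ t, ?_, ?_⟩
  · simp [hα0]
  · intro t ht
    have ht0 : (0 : ℝ) ≤ t := ht
    set n := ⌊t⌋₊ with hn
    have htn : t < n + 1 := Nat.lt_floor_add_one t
    have heq : ∀ s ∈ Ico (0 : ℝ) (n + 1), α ⌊s⌋₊ s = α n s := by
      intro s hs
      have h1 : ⌊s⌋₊ ≤ n := by
        have : ⌊s⌋₊ < n + 1 := by
          rw [Nat.floor_lt hs.1]
          exact_mod_cast hs.2
        omega
      exact huniq _ _ h1 ⟨hs.1, (Nat.lt_floor_add_one s).le⟩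
    have hmem : Ico (0 : ℝ) (n + 1) ∈ 𝓝[Ici 0] t :=
      mem_nhdsWithin.2 ⟨Iio (n + 1), isOpen_Iio, htn, fun s hs => ⟨hs.2, hs.1⟩⟩
    have h1 : HasDerivWithinAt (α n) (g (α n t)) (Ici 0) t :=
      (hα n t ⟨ht0, htn.le⟩).mono_of_mem_nhdsWithin
        (mem_of_superset hmem Ico_subset_Icc_self)
    refine h1.congr_of_eventuallyEq ?_ rfl
    exact mem_of_superset hmem heq

end Exist

section Scalar

lemma exists_pos_lb {X : Type*} [TopologicalSpace X] {s : Set X} (hs : IsCompact s) {φ : X → ℝ}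
    (hφ : ContinuousOn φ s) (hpos : ∀ x ∈ s, 0 < φ x) : ∃ δ > 0, ∀ x ∈ s, δ ≤ φ x := by
  rcases s.eq_empty_or_nonempty with rfl | hne
  · exact ⟨1, one_pos, by simp⟩
  · obtain ⟨x, hx, hmin⟩ := hs.exists_isMinOn hne hφ
    exact ⟨φ x, hpos x hx, fun y hy => hmin hy⟩

/-- If `y' > 0` whenever `y = a`, then `y ≥ a` is forward invariant. -/
lemma scalar_invariant_lower {y y' : ℝ → ℝ} {a t1 : ℝ} (ht1 : 0 ≤ t1)
    (hy : ∀ t ∈ Ici (0 : ℝ), HasDerivWithinAt y (y' t) (Ici 0) t)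
    (hlow : ∀ t, t1 ≤ t → y t = a → 0 < y' t) (h1 : a ≤ y t1) :
    ∀ t, t1 ≤ t → a ≤ y t := by
  intro t ht
  have hcont : ContinuousOn y (Icc t1 t) := fun s hs =>
    ((hy s (ht1.trans hs.1)).continuousWithinAt).mono
      (fun r hr => (ht1.trans hr.1 : (0 : ℝ) ≤ r))
  have := image_le_of_deriv_right_lt_deriv_boundary' (f := fun _ => a) (f' := fun _ => 0)
    (a := t1) (b := t) (B := y) (B' := y') continuousOn_const
    (fun x _ => hasDerivWithinAt_const _ _ _) h1 hcont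
    (fun x hx => (hy x (ht1.trans hx.1)).mono (Ici_subset_Ici.2 (ht1.trans hx.1)))
    (fun x hx hax => hlow x hx.1 hax.symm)
  exact this ⟨ht, le_rfl⟩

lemma scalar_absorb_lower {y y' : ℝ → ℝ} {a δ : ℝ} (hδ : 0 < δ)
    (hy : ∀ t ∈ Ici (0 : ℝ), HasDerivWithinAt y (y' t) (Ici 0) t)
    (hlow : ∀ t, 0 ≤ t → y t ≤ a → δ ≤ y' t) :
    ∃ T, 0 ≤ T ∧ ∀ t, T ≤ t → a ≤ y t := by
  have hex : ∃ t1, 0 ≤ t1 ∧ a ≤ y t1 := by
    by_contra hcon
    push Not at hcon
    set t := (a - y 0) / δ + 1 with ht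
    have h0 : y 0 < a := hcon 0 le_rfl
    have htpos : 0 ≤ t := by
      have : 0 ≤ (a - y 0) / δ := div_nonneg (by linarith) hδ.le
      linarith
    have hcont : ContinuousOn y (Icc 0 t) := fun s hs =>
      ((hy s hs.1).continuousWithinAt).mono (fun r hr => hr.1)
    have := image_le_of_deriv_right_le_deriv_boundary (f := fun s => y 0 + δ * s)
      (f' := fun _ => δ) (a := 0) (b := t) (B := y) (B' := y')
      (by fun_prop)
      (fun x _ => by
        have := ((hasDerivAt_id x).const_mul δ).const_add (y 0)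
        simpa using this.hasDerivWithinAt)
      (by simp) hcont
      (fun x hx => (hy x hx.1).mono (Ici_subset_Ici.2 hx.1))
      (fun x hx => hlow x hx.1 (hcon x hx.1).le)
    have h2 := this ⟨htpos, le_rfl⟩
    have h3 := hcon t htpos
    have h4 : δ * t = (a - y 0) + δ := by
      rw [ht]; field_simp
    linarith
  obtain ⟨t1, ht1, h1⟩ := hex
  refine ⟨t1, ht1, scalar_invariant_lower ht1 hy ?_ h1⟩
  intro t ht hta
  exact lt_of_lt_of_le hδ (hlow t (ht1.trans ht) hta.le)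

lemma scalar_invariant_upper {y y' : ℝ → ℝ} {a t1 : ℝ} (ht1 : 0 ≤ t1)
    (hy : ∀ t ∈ Ici (0 : ℝ), HasDerivWithinAt y (y' t) (Ici 0) t)
    (hup : ∀ t, t1 ≤ t → y t = a → y' t < 0) (h1 : y t1 ≤ a) :
    ∀ t, t1 ≤ t → y t ≤ a := by
  have := scalar_invariant_lower (y := fun t => - y t) (y' := fun t => - y' t) (a := -a) ht1
    (fun t ht => (hy t ht).neg) (fun t ht h => by
      have : y t = a := by simpa using h
      have := hup t ht this
      linarith) (by simpa using h1)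
  intro t ht
  have := this t ht
  linarith

lemma scalar_absorb_upper {y y' : ℝ → ℝ} {a δ : ℝ} (hδ : 0 < δ)
    (hy : ∀ t ∈ Ici (0 : ℝ), HasDerivWithinAt y (y' t) (Ici 0) t)
    (hup : ∀ t, 0 ≤ t → a ≤ y t → y' t ≤ -δ) :
    ∃ T, 0 ≤ T ∧ ∀ t, T ≤ t → y t ≤ a := by
  obtain ⟨T, hT, h⟩ := scalar_absorb_lower (y := fun t => - y t) (y' := fun t => - y' t)
    (a := -a) hδ (fun t ht => (hy t ht).neg) (fun t ht h => by
      have : a ≤ y t := by simpa using h
      have := hup t ht this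
      linarith)
  exact ⟨T, hT, fun t ht => by have := h t ht; linarith⟩

lemma scalar_const {y : ℝ → ℝ}
    (hy : ∀ t ∈ Ici (0 : ℝ), HasDerivWithinAt y 0 (Ici 0) t) :
    ∀ t, 0 ≤ t → y t = y 0 := by
  intro t ht
  have hcont : ContinuousOn y (Icc 0 t) := fun s hs =>
    ((hy s hs.1).continuousWithinAt).mono (fun r hr => hr.1)
  exact constant_of_has_deriv_right_zero hcont
    (fun x hx => (hy x hx.1).mono (Ici_subset_Ici.2 hx.1)) t ⟨ht, le_rfl⟩

end Scalar

section Box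

/-- Hypotheses of the trapping-box lemma. -/
structure BoxHyp (f : (ι → ℝ) → (ι → ℝ)) (l u lo hi : ι → ℝ) (act : ι → Prop) : Prop where
  lu : l ≤ u
  lip : ∃ K : ℝ≥0, LipschitzOnWith K f (Icc l u)
  lo_pos : ∀ i, act i → ∀ x ∈ Icc l u, x i ≤ lo i → 0 < f x i
  hi_neg : ∀ i, act i → ∀ x ∈ Icc l u, hi i ≤ x i → f x i < 0
  l_le : ∀ i, act i → l i ≤ lo i
  le_u : ∀ i, act i → hi i ≤ u i
  inact : ∀ i, ¬ act i → ∀ x ∈ Icc l u, f x i = 0

variable {f : (ι → ℝ) → (ι → ℝ)} {l u lo hi : ι → ℝ} {act : ι → Prop}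

theorem BoxHyp.exists_sol (h : BoxHyp f l u lo hi act) {x0 : ι → ℝ} (hx0 : x0 ∈ Icc l u) :
    ∃ α : ℝ → ι → ℝ, α 0 = x0 ∧
      (∀ t ∈ Ici (0 : ℝ), HasDerivWithinAt α (f (α t)) (Ici 0) t) ∧
      ∀ t, 0 ≤ t → α t ∈ Icc l u := by
  obtain ⟨K, hK⟩ := h.lip
  obtain ⟨C, hC⟩ := (isCompact_Icc (a := l) (b := u)).exists_bound_of_continuousOn hK.continuousOn
  set g : (ι → ℝ) → (ι → ℝ) := fun x => f (clamp l u x) with hg
  have hgl : LipschitzWith K g := by
    apply LipschitzWith.of_dist_le_mul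
    intro x y
    calc dist (g x) (g y) ≤ K * dist (clamp l u x) (clamp l u y) :=
          hK.dist_le_mul _ (clamp_mem h.lu x) _ (clamp_mem h.lu y)
      _ ≤ K * dist x y := by
          have := (clamp_lipschitz l u).dist_le_mul x y
          simp only [NNReal.coe_one, one_mul] at this
          exact mul_le_mul_of_nonneg_left this K.2
  have hgM : ∀ x, ‖g x‖ ≤ (Real.toNNReal C : ℝ≥0) := by
    intro x
    exact (hC _ (clamp_mem h.lu x)).trans (Real.le_coe_toNNReal C)
  obtain ⟨α, hα0, hα⟩ := exists_sol_Ici g K (Real.toNNReal C) hgl hgM x0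
  have hcoord : ∀ i, ∀ t ∈ Ici (0 : ℝ),
      HasDerivWithinAt (fun s => α s i) (g (α t) i) (Ici 0) t :=
    fun i t ht => hasDerivWithinAt_pi.1 (hα t ht) i
  have hmem : ∀ t, 0 ≤ t → α t ∈ Icc l u := by
    intro t ht
    have key : ∀ i, l i ≤ α t i ∧ α t i ≤ u i := by
      intro i
      by_cases hi' : act i
      · constructor
        · refine scalar_invariant_lower (y := fun s => α s i) (y' := fun s => g (α s) i)
            le_rfl (hcoord i) ?_ (by rw [hα0]; exact hx0.1 i) t ht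
          intro s _ hs
          apply h.lo_pos i hi' _ (clamp_mem h.lu _)
          have hs' : α s i = l i := hs
          simp only [clamp, hs']
          rw [min_eq_right (h.lu i), max_self]
          exact h.l_le i hi'
        · refine scalar_invariant_upper (y := fun s => α s i) (y' := fun s => g (α s) i)
            le_rfl (hcoord i) ?_ (by rw [hα0]; exact hx0.2 i) t ht
          intro s _ hs
          apply h.hi_neg i hi' _ (clamp_mem h.lu _)
          have hs' : α s i = u i := hs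
          simp only [clamp, hs']
          rw [min_self, max_eq_right (h.lu i)]
          exact h.le_u i hi'
      · have hz : ∀ s ∈ Ici (0 : ℝ), HasDerivWithinAt (fun s => α s i) 0 (Ici 0) s := by
          intro s hs
          have := hcoord i s hs
          rwa [show g (α s) i = 0 from h.inact i hi' _ (clamp_mem h.lu _)] at this
        have := scalar_const hz t ht
        rw [this, hα0]
        exact ⟨hx0.1 i, hx0.2 i⟩
    exact ⟨fun i => (key i).1, fun i => (key i).2⟩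
  refine ⟨α, hα0, ?_, hmem⟩
  intro t ht
  have := hα t ht
  rwa [show g (α t) = f (α t) by simp only [hg]; rw [clamp_eq_self (hmem t ht)]] at this

theorem BoxHyp.absorb (h : BoxHyp f l u lo hi act) {α : ℝ → ι → ℝ}
    (hα : ∀ t ∈ Ici (0 : ℝ), HasDerivWithinAt α (f (α t)) (Ici 0) t)
    (hmem : ∀ t, 0 ≤ t → α t ∈ Icc l u) :
    (∃ T, 0 ≤ T ∧ ∀ t, T ≤ t → ∀ i, act i → α t i ∈ Icc (lo i) (hi i)) ∧
      ∀ i, ¬ act i → ∀ t, 0 ≤ t → α t i = α 0 i := by
  obtain ⟨K, hK⟩ := h.lip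
  have hcoord : ∀ i, ∀ t ∈ Ici (0 : ℝ),
      HasDerivWithinAt (fun s => α s i) (f (α t) i) (Ici 0) t :=
    fun i t ht => hasDerivWithinAt_pi.1 (hα t ht) i
  have hfi : ∀ i, ContinuousOn (fun x => f x i) (Icc l u) := fun i =>
    (continuous_apply i).comp_continuousOn hK.continuousOn
  constructor
  · have hone : ∀ i, ∃ T, 0 ≤ T ∧ ∀ t, T ≤ t → act i → α t i ∈ Icc (lo i) (hi i) := by
      intro i
      by_cases hi' : act i
      · -- lower
        have hc1 : IsCompact (Icc l u ∩ {x : ι → ℝ | x i ≤ lo i}) :=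
          isCompact_Icc.inter_right (isClosed_le (continuous_apply i) continuous_const)
        obtain ⟨δ1, hδ1, hb1⟩ := exists_pos_lb hc1 ((hfi i).mono inter_subset_left)
          (fun x hx => h.lo_pos i hi' x hx.1 hx.2)
        obtain ⟨T1, hT1, hA1⟩ := scalar_absorb_lower (y := fun s => α s i)
          (y' := fun s => f (α s) i) (a := lo i) hδ1 (hcoord i)
          (fun t ht hle => hb1 _ ⟨hmem t ht, hle⟩)
        have hc2 : IsCompact (Icc l u ∩ {x : ι → ℝ | hi i ≤ x i}) :=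
          isCompact_Icc.inter_right (isClosed_le continuous_const (continuous_apply i))
        obtain ⟨δ2, hδ2, hb2⟩ := exists_pos_lb (φ := fun x => - f x i) hc2
          (((hfi i).mono inter_subset_left).neg)
          (fun x hx => by have := h.hi_neg i hi' x hx.1 hx.2; linarith)
        obtain ⟨T2, hT2, hA2⟩ := scalar_absorb_upper (y := fun s => α s i)
          (y' := fun s => f (α s) i) (a := hi i) hδ2 (hcoord i)
          (fun t ht hle => by have := hb2 _ ⟨hmem t ht, hle⟩; linarith)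
        refine ⟨max T1 T2, le_max_of_le_left hT1, fun t ht _ => ⟨hA1 t ?_, hA2 t ?_⟩⟩
        · exact (le_max_left _ _).trans ht
        · exact (le_max_right _ _).trans ht
      · exact ⟨0, le_rfl, fun t _ hcon => absurd hcon hi'⟩
    choose T hT0 hT using hone
    refine ⟨∑ i, T i, Finset.sum_nonneg (fun i _ => hT0 i), fun t ht i hi' => hT i t ?_ hi'⟩
    exact (Finset.single_le_sum (fun j _ => hT0 j) (Finset.mem_univ i)).trans ht
  · intro i hi' t ht
    have hz : ∀ s ∈ Ici (0 : ℝ), HasDerivWithinAt (fun s => α s i) 0 (Ici 0) s := by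
      intro s hs
      have := hcoord i s hs
      rwa [show f (α s) i = 0 from h.inact i hi' _ (hmem s hs)] at this
    exact scalar_const hz t ht

end Box

end Vale.Agent.Lib.P072
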