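import Mathlib

namespace Vale.Agent.Lib.P072

open Finset

variable {ρ : Type*}

/-- Abstract domination lemma: if every negative term is dominated (up to the small factor `s`)
by some positive term, the signed sum is positive. -/
lemma sum_pos_of_dominated (R : Finset ρ) (k m n : ρ → ℝ)
    (hk : ∀ r ∈ R, 0 < k r) (hm : ∀ r ∈ R, 0 < m r) (hn1 : ∀ r ∈ R, 0 < n r → 1 ≤ n r)
    (s : ℝ) (hs : 0 ≤ s)
    (hdom : ∀ r ∈ R, n r < 0 → ∃ u ∈ R, 0 < n u ∧ m r ≤ s * m u)
    (hne : ∃ r ∈ R, n r ≠ 0)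
    (hsC : s * ((∑ r ∈ R, k r * |n r|) * ∑ u ∈ R, (k u)⁻¹) < 1) :
    0 < ∑ r ∈ R, k r * m r * n r := by
  classical
  set Tsum : ℝ := ∑ u ∈ R, k u * m u * max (n u) 0 with hT
  set Kinv : ℝ := ∑ u ∈ R, (k u)⁻¹ with hKinv
  have hterm_nonneg : ∀ u ∈ R, 0 ≤ k u * m u * max (n u) 0 := fun u hu =>
    mul_nonneg (mul_nonneg (hk u hu).le (hm u hu).le) (le_max_right _ _)
  have hTle : ∀ u ∈ R, k u * m u * max (n u) 0 ≤ Tsum := fun u hu =>
    single_le_sum hterm_nonneg hu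
  have hKinv_le : ∀ u ∈ R, (k u)⁻¹ ≤ Kinv := fun u hu =>
    single_le_sum (f := fun u => (k u)⁻¹) (fun v hv => (inv_pos.2 (hk v hv)).le) hu
  have hTnonneg : 0 ≤ Tsum := sum_nonneg hterm_nonneg
  have hKnonneg : 0 ≤ Kinv := sum_nonneg (fun v hv => (inv_pos.2 (hk v hv)).le)
  -- a positive term exists
  have hpos_ex : ∃ u ∈ R, 0 < n u := by
    obtain ⟨r, hr, hnr⟩ := hne
    rcases lt_or_gt_of_ne hnr with h | h
    · obtain ⟨u, hu, hu0, _⟩ := hdom r hr h
      exact ⟨u, hu, hu0⟩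
    · exact ⟨r, hr, h⟩
  have hTpos : 0 < Tsum := by
    obtain ⟨u, hu, hu0⟩ := hpos_ex
    refine lt_of_lt_of_le ?_ (hTle u hu)
    rw [max_eq_left hu0.le]
    exact mul_pos (mul_pos (hk u hu) (hm u hu)) hu0
  -- bound on each m u with n u > 0
  have hmu : ∀ u ∈ R, 0 < n u → m u ≤ Kinv * Tsum := by
    intro u hu hu0
    have h1 : k u * m u ≤ Tsum := by
      refine le_trans ?_ (hTle u hu)
      rw [max_eq_left hu0.le]
      have := hn1 u hu hu0
      have hkm : 0 ≤ k u * m u := (mul_pos (hk u hu) (hm u hu)).le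
      nlinarith
    have h2 : m u = (k u)⁻¹ * (k u * m u) := by
      field_simp [(hk u hu).ne']
    rw [h2]
    exact mul_le_mul (hKinv_le u hu) h1 (mul_pos (hk u hu) (hm u hu)).le hKnonneg
  -- termwise bound
  have hterm : ∀ r ∈ R, k r * m r * max (n r) 0 - (k r * |n r|) * (s * (Kinv * Tsum))
      ≤ k r * m r * n r := by
    intro r hr
    rcases lt_or_ge (n r) 0 with h | h
    · obtain ⟨u, hu, hu0, hmr⟩ := hdom r hr h
      have h3 : m r ≤ s * (Kinv * Tsum) := hmr.trans (mul_le_mul_of_nonneg_left (hmu u hu hu0) hs)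
      rw [max_eq_right h.le, abs_of_neg h]
      have hkn : 0 ≤ k r * (- n r) := mul_nonneg (hk r hr).le (by linarith)
      nlinarith [mul_le_mul_of_nonneg_left h3 hkn]
    · rw [max_eq_left h]
      have : 0 ≤ (k r * |n r|) * (s * (Kinv * Tsum)) :=
        mul_nonneg (mul_nonneg (hk r hr).le (abs_nonneg _))
          (mul_nonneg hs (mul_nonneg hKnonneg hTnonneg))
      linarith
  have hsum := sum_le_sum hterm
  rw [sum_sub_distrib, ← sum_mul] at hsum
  have : 0 < Tsum - (∑ r ∈ R, k r * |n r|) * (s * (Kinv * Tsum)) := by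
    have : Tsum - (∑ r ∈ R, k r * |n r|) * (s * (Kinv * Tsum))
        = Tsum * (1 - s * ((∑ r ∈ R, k r * |n r|) * Kinv)) := by ring
    rw [this]
    exact mul_pos hTpos (by linarith)
  linarith

end Vale.Agent.Lib.P072
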