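import Mathlib

namespace Vale.Agent.Lib.P072

open Set Filter Topology
open scoped NNReal

variable {E : Type*} [NormedAddCommGroup E] [NormedSpace ℝ E]

/-- Uniqueness of solutions of `x' = f(x)` on `[0, T)` for a `C^1` vector field. -/
lemma sol_unique {f : E → E} (hf : ContDiff ℝ 1 f) {T : ℝ} {x z : ℝ → E}
    (hx : ∀ t ∈ Ico (0 : ℝ) T, HasDerivWithinAt x (f (x t)) (Ico 0 T) t)
    (hz : ∀ t ∈ Ico (0 : ℝ) T, HasDerivWithinAt z (f (z t)) (Ico 0 T) t)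
    (h0 : x 0 = z 0) : ∀ t ∈ Ico (0 : ℝ) T, x t = z t := by
  intro t ht
  have hsub : Icc (0 : ℝ) t ⊆ Ico 0 T := fun s hs => ⟨hs.1, hs.2.trans_lt ht.2⟩
  have hxc : ContinuousOn x (Icc 0 t) := fun s hs =>
    ((hx s (hsub hs)).continuousWithinAt).mono hsub
  have hzc : ContinuousOn z (Icc 0 t) := fun s hs =>
    ((hz s (hsub hs)).continuousWithinAt).mono hsub
  set S : Set E := x '' Icc 0 t ∪ z '' Icc 0 t with hS
  have hSc : IsCompact S := (isCompact_Icc.image_of_continuousOn hxc).union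
    (isCompact_Icc.image_of_continuousOn hzc)
  have hll : LocallyLipschitzOn S f := hf.locallyLipschitz.locallyLipschitzOn
  obtain ⟨K, hK⟩ := hll.exists_lipschitzOnWith_of_compact hSc
  have := ODE_solution_unique_of_mem_Icc_right (v := fun _ => f) (s := fun _ => S) (K := K)
    (f := x) (g := z) (a := 0) (b := t) (fun _ _ => hK) hxc
    (fun s hs => (hx s (hsub ⟨hs.1, hs.2.le⟩)).mono_of_mem_nhdsWithin
      (Ico_mem_nhdsGE_of_mem ⟨hs.1, hs.2.trans ht.2⟩))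
    (fun s hs => Or.inl ⟨s, ⟨hs.1, hs.2.le⟩, rfl⟩) hzc
    (fun s hs => (hz s (hsub ⟨hs.1, hs.2.le⟩)).mono_of_mem_nhdsWithin
      (Ico_mem_nhdsGE_of_mem ⟨hs.1, hs.2.trans ht.2⟩))
    (fun s hs => Or.inr ⟨s, ⟨hs.1, hs.2.le⟩, rfl⟩) h0
  exact this ⟨ht.1, le_rfl⟩

end Vale.Agent.Lib.P072
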