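import Vale.Agent.Lib.P072.Defs
import Vale.Agent.Lib.P072.Box
import Vale.Agent.Lib.P072.Unique
import Vale.Agent.Lib.P072.Domination

namespace Vale.Agent.Lib.P072

open Set Finset

variable {d : ℕ}

section Path

variable {N : Network d} {σ : (Fin d → ℕ) → Fin d}

lemma path_invariant (hσ : AxisLabel N σ) {i : Fin d} {a b : Fin d → ℕ}
    (hpath : Relation.ReflTransGen (fun a b => (a, b) ∈ N.reactions) a b) (ha : σ a = i) :
    σ b = i ∧ ∀ j, j ≠ i → b j = a j := by
  induction hpath with
  | refl => exact ⟨ha, fun _ _ => rfl⟩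
  | tail _ hbc ih =>
    obtain ⟨h1, h2⟩ := ih
    obtain ⟨h3, h4⟩ := hσ _ hbc
    simp only at h3 h4
    refine ⟨by rw [← h3, h1], fun j hj => ?_⟩
    rw [← h4 j (by rw [h1]; exact hj), h2 j hj]

lemma exists_up_edge (hσ : AxisLabel N σ) {i : Fin d} {a b : Fin d → ℕ}
    (hpath : Relation.ReflTransGen (fun a b => (a, b) ∈ N.reactions) a b) (ha : σ a = i)
    (hab : a i < b i) :
    ∃ u ∈ N.reactions, u.1 i ≤ a i ∧ a i < u.2 i ∧ ∀ j, j ≠ i → u.1 j = a j := by
  have key : b i ≤ a i ∨
      ∃ u ∈ N.reactions, u.1 i ≤ a i ∧ a i < u.2 i ∧ ∀ j, j ≠ i → u.1 j = a j := by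
    clear hab
    induction hpath with
    | refl => exact Or.inl le_rfl
    | @tail b c hab' hbc ih =>
      rcases ih with h | h
      · by_cases hc : c i ≤ a i
        · exact Or.inl hc
        · exact Or.inr ⟨(b, c), hbc, h, not_le.1 hc, (path_invariant hσ hab' ha).2⟩
      · exact Or.inr h
  rcases key with h | h
  · omega
  · exact h

lemma exists_down_edge (hσ : AxisLabel N σ) {i : Fin d} {a b : Fin d → ℕ}
    (hpath : Relation.ReflTransGen (fun a b => (a, b) ∈ N.reactions) a b) (ha : σ a = i)
    (hab : b i < a i) :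
    ∃ u ∈ N.reactions, a i ≤ u.1 i ∧ u.2 i < a i ∧ ∀ j, j ≠ i → u.1 j = a j := by
  have key : a i ≤ b i ∨
      ∃ u ∈ N.reactions, a i ≤ u.1 i ∧ u.2 i < a i ∧ ∀ j, j ≠ i → u.1 j = a j := by
    clear hab
    induction hpath with
    | refl => exact Or.inl le_rfl
    | @tail b c hab' hbc ih =>
      rcases ih with h | h
      · by_cases hc : a i ≤ c i
        · exact Or.inl hc
        · exact Or.inr ⟨(b, c), hbc, h, not_le.1 hc, (path_invariant hσ hab' ha).2⟩
      · exact Or.inr h
  rcases key with h | h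
  · omega
  · exact h

lemma label_eq_of_ne (hσ : AxisLabel N σ) {r : (Fin d → ℕ) × (Fin d → ℕ)}
    (hr : r ∈ N.reactions) {i : Fin d} (hi : r.1 i ≠ r.2 i) : σ r.1 = i := by
  by_contra hcon
  exact hi ((hσ r hr).2 i (fun h => hcon h.symm))

end Path

section Monomial

lemma monomial_eq (x : Fin d → ℝ) {i : Fin d} {y w : Fin d → ℕ}
    (hyw : ∀ j, j ≠ i → y j = w j) (hi : w i ≤ y i) :
    ∏ j, x j ^ y j = (∏ j, x j ^ w j) * x i ^ (y i - w i) := by
  classical
  have h1 : ∀ j, x j ^ y j = x j ^ w j * (if j = i then x i ^ (y i - w i) else 1) := by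
    intro j
    by_cases hj : j = i
    · subst hj
      simp only [if_true]
      rw [← pow_add]
      congr 1
      omega
    · simp only [hj, if_false, mul_one, hyw j hj]
  simp_rw [h1]
  rw [Finset.prod_mul_distrib]
  congr 1
  simp

end Monomial

section Sign

variable {N : Network d} {σ : (Fin d → ℕ) → Fin d} {k : (Fin d → ℕ) × (Fin d → ℕ) → ℝ}

lemma massAction_apply (x : Fin d → ℝ) (i : Fin d) :
    N.massAction k x i
      = ∑ r ∈ N.reactions, k r * (∏ j, x j ^ r.1 j) * ((r.2 i : ℝ) - (r.1 i : ℝ)) := by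
  simp [Network.massAction, reactionVector, Finset.sum_apply]

/-- The constant controlling the thresholds for species `i`. -/
noncomputable def axisConst (N : Network d) (k : (Fin d → ℕ) × (Fin d → ℕ) → ℝ) (i : Fin d) : ℝ :=
  (∑ r ∈ N.reactions, k r * |(r.2 i : ℝ) - (r.1 i : ℝ)|) * ∑ u ∈ N.reactions, (k u)⁻¹

lemma axisConst_nonneg (hk : ∀ r ∈ N.reactions, 0 < k r) (i : Fin d) : 0 ≤ axisConst N k i :=
  mul_nonneg (Finset.sum_nonneg fun r hr => mul_nonneg (hk r hr).le (abs_nonneg _))
    (Finset.sum_nonneg fun r hr => (inv_pos.2 (hk r hr)).le)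

lemma exists_changing (hσ : AxisLabel N σ) {i : Fin d} (hact : ∃ r ∈ N.reactions, σ r.1 = i) :
    ∃ r ∈ N.reactions, r.1 i ≠ r.2 i := by
  obtain ⟨r, hr, hri⟩ := hact
  refine ⟨r, hr, fun heq => N.source_ne_target r hr ?_⟩
  funext j
  by_cases hj : j = i
  · rw [hj]; exact heq
  · exact (hσ r hr).2 j (by rw [hri]; exact hj)

lemma massAction_pos_of_small (hwr : N.WeaklyReversible) (hσ : AxisLabel N σ)
    (hk : ∀ r ∈ N.reactions, 0 < k r) {i : Fin d} (hact : ∃ r ∈ N.reactions, σ r.1 = i)
    {x : Fin d → ℝ} (hx : ∀ j, 0 < x j) (hxi : x i ≤ 1 / (axisConst N k i + 1)) :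
    0 < N.massAction k x i := by
  rw [massAction_apply]
  have hC := axisConst_nonneg (N := N) hk i
  have hx1 : x i ≤ 1 := hxi.trans (by rw [div_le_one (by linarith)]; linarith)
  apply sum_pos_of_dominated N.reactions k (fun r => ∏ j, x j ^ r.1 j)
    (fun r => (r.2 i : ℝ) - (r.1 i : ℝ)) hk
    (fun r _ => Finset.prod_pos fun j _ => pow_pos (hx j) _) ?_ (x i) (hx i).le ?_ ?_ ?_
  · intro r _ h
    have h1 : (r.1 i : ℝ) < r.2 i := by linarith
    have h2 : r.1 i + 1 ≤ r.2 i := by exact_mod_cast h1
    have h3 : ((r.1 i : ℝ) + 1) ≤ r.2 i := by exact_mod_cast h2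
    linarith
  · intro r hr h
    have h1 : (r.2 i : ℝ) < r.1 i := by linarith
    have h2 : r.2 i < r.1 i := by exact_mod_cast h1
    have hl : σ r.1 = i := label_eq_of_ne hσ hr (by omega)
    have hl2 : σ r.2 = i := by rw [← (hσ r hr).1, hl]
    obtain ⟨u, hu, hu1, hu2, hu3⟩ := exists_up_edge hσ (hwr r hr) hl2 h2
    refine ⟨u, hu, ?_, ?_⟩
    · have : (u.1 i : ℝ) < u.2 i := by exact_mod_cast lt_of_le_of_lt hu1 hu2
      linarith
    · have hoff : ∀ j, j ≠ i → r.1 j = u.1 j := by
        intro j hj
        rw [hu3 j hj]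
        exact (hσ r hr).2 j (by rw [hl]; exact hj)
      rw [monomial_eq x hoff (by omega), mul_comm]
      apply mul_le_mul_of_nonneg_right _ (Finset.prod_pos fun j _ => pow_pos (hx j) _).le
      calc x i ^ (r.1 i - u.1 i) ≤ x i ^ 1 :=
            pow_le_pow_of_le_one (hx i).le hx1 (by omega)
        _ = x i := pow_one _
  · obtain ⟨r, hr, hne⟩ := exists_changing hσ hact
    refine ⟨r, hr, ?_⟩
    intro h
    apply hne
    have : (r.2 i : ℝ) = r.1 i := by linarith
    exact_mod_cast this.symm
  · have : x i * axisConst N k i < 1 := by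
      calc x i * axisConst N k i ≤ 1 / (axisConst N k i + 1) * axisConst N k i :=
            mul_le_mul_of_nonneg_right hxi hC
        _ < 1 := by
            rw [div_mul_eq_mul_div, one_mul, div_lt_one (by linarith)]
            linarith
    exact this

lemma massAction_neg_of_large (hwr : N.WeaklyReversible) (hσ : AxisLabel N σ)
    (hk : ∀ r ∈ N.reactions, 0 < k r) {i : Fin d} (hact : ∃ r ∈ N.reactions, σ r.1 = i)
    {x : Fin d → ℝ} (hx : ∀ j, 0 < x j) (hxi : axisConst N k i + 1 ≤ x i) :
    N.massAction k x i < 0 := by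
  rw [massAction_apply]
  have hC := axisConst_nonneg (N := N) hk i
  have hx1 : 1 ≤ x i := by linarith
  have key : 0 < ∑ r ∈ N.reactions, k r * (∏ j, x j ^ r.1 j) * ((r.1 i : ℝ) - (r.2 i : ℝ)) := by
    apply sum_pos_of_dominated N.reactions k (fun r => ∏ j, x j ^ r.1 j)
      (fun r => (r.1 i : ℝ) - (r.2 i : ℝ)) hk
      (fun r _ => Finset.prod_pos fun j _ => pow_pos (hx j) _) ?_ (x i)⁻¹
      (inv_pos.2 (hx i)).le ?_ ?_ ?_
    · intro r _ h
      have h1 : (r.2 i : ℝ) < r.1 i := by linarith
      have h2 : r.2 i + 1 ≤ r.1 i := by exact_mod_cast h1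
      have h3 : ((r.2 i : ℝ) + 1) ≤ r.1 i := by exact_mod_cast h2
      linarith
    · intro r hr h
      have h1 : (r.1 i : ℝ) < r.2 i := by linarith
      have h2 : r.1 i < r.2 i := by exact_mod_cast h1
      have hl : σ r.1 = i := label_eq_of_ne hσ hr (by omega)
      have hl2 : σ r.2 = i := by rw [← (hσ r hr).1, hl]
      obtain ⟨u, hu, hu1, hu2, hu3⟩ := exists_down_edge hσ (hwr r hr) hl2 h2
      refine ⟨u, hu, ?_, ?_⟩
      · have : (u.2 i : ℝ) < u.1 i := by exact_mod_cast lt_of_lt_of_le hu2 hu1
        linarith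
      · have hoff : ∀ j, j ≠ i → u.1 j = r.1 j := by
          intro j hj
          rw [hu3 j hj]
          exact ((hσ r hr).2 j (by rw [hl]; exact hj)).symm
        rw [monomial_eq x hoff (by omega)]
        have hp : 0 < ∏ j, x j ^ r.1 j := Finset.prod_pos fun j _ => pow_pos (hx j) _
        have h5 : x i ≤ x i ^ (u.1 i - r.1 i) := by
          calc x i = x i ^ 1 := (pow_one _).symm
            _ ≤ x i ^ (u.1 i - r.1 i) := pow_le_pow_right₀ hx1 (by omega)
        have h6 : 1 ≤ (x i)⁻¹ * x i ^ (u.1 i - r.1 i) := by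
          rw [inv_mul_eq_div, le_div_iff₀ (hx i)]
          linarith
        calc ∏ j, x j ^ r.1 j = 1 * ∏ j, x j ^ r.1 j := (one_mul _).symm
          _ ≤ ((x i)⁻¹ * x i ^ (u.1 i - r.1 i)) * ∏ j, x j ^ r.1 j :=
              mul_le_mul_of_nonneg_right h6 hp.le
          _ = (x i)⁻¹ * ((∏ j, x j ^ r.1 j) * x i ^ (u.1 i - r.1 i)) := by ring
    · obtain ⟨r, hr, hne⟩ := exists_changing hσ hact
      refine ⟨r, hr, ?_⟩
      intro h
      apply hne
      have : (r.1 i : ℝ) = r.2 i := by linarith
      exact_mod_cast this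
    · have hrw : (∑ r ∈ N.reactions, k r * |(r.1 i : ℝ) - (r.2 i : ℝ)|)
          = ∑ r ∈ N.reactions, k r * |(r.2 i : ℝ) - (r.1 i : ℝ)| :=
        Finset.sum_congr rfl fun r _ => by rw [abs_sub_comm]
      rw [hrw]
      change (x i)⁻¹ * axisConst N k i < 1
      rw [inv_mul_eq_div, div_lt_one (hx i)]
      linarith
  have hneg : ∑ r ∈ N.reactions, k r * (∏ j, x j ^ r.1 j) * ((r.2 i : ℝ) - (r.1 i : ℝ))
      = - ∑ r ∈ N.reactions, k r * (∏ j, x j ^ r.1 j) * ((r.1 i : ℝ) - (r.2 i : ℝ)) := by
    rw [← Finset.sum_neg_distrib]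
    exact Finset.sum_congr rfl fun r _ => by ring
  rw [hneg]
  linarith

lemma massAction_eq_zero_of_inactive (hσ : AxisLabel N σ) {i : Fin d}
    (hact : ¬ ∃ r ∈ N.reactions, σ r.1 = i) (x : Fin d → ℝ) : N.massAction k x i = 0 := by
  rw [massAction_apply]
  apply Finset.sum_eq_zero
  intro r hr
  have : r.1 i = r.2 i := (hσ r hr).2 i (fun h => hact ⟨r, hr, h.symm⟩)
  rw [this]; ring

lemma massAction_contDiff (N : Network d) (k : (Fin d → ℕ) × (Fin d → ℕ) → ℝ) :
    ContDiff ℝ 1 (N.massAction k) := by
  unfold Network.massAction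
  apply ContDiff.sum
  intro r _
  have h1 : ContDiff ℝ 1 (fun x : Fin d → ℝ => k r * ∏ i, x i ^ r.1 i) := by
    apply contDiff_const.mul
    apply contDiff_prod
    intro i _
    exact (contDiff_apply ℝ ℝ i).pow _
  exact h1.smul contDiff_const

end Sign

section Final

variable {N : Network d} {σ : (Fin d → ℕ) → Fin d} {k : (Fin d → ℕ) × (Fin d → ℕ) → ℝ}

lemma mem_stoich_iff (hσ : AxisLabel N σ) (v : Fin d → ℝ) :
    v ∈ N.stoichSubspace ↔ ∀ i, (¬ ∃ r ∈ N.reactions, σ r.1 = i) → v i = 0 := by
  classical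
  constructor
  · intro hv i hi
    unfold Network.stoichSubspace at hv
    induction hv using Submodule.span_induction with
    | mem x hx =>
      obtain ⟨r, hr, rfl⟩ := hx
      have : r.1 i = r.2 i := (hσ r hr).2 i (fun h => hi ⟨r, hr, h.symm⟩)
      simp [reactionVector, this]
    | zero => rfl
    | add x y _ _ hx hy => simp [hx, hy]
    | smul a x _ hx => simp [hx]
  · intro hv
    rw [← Finset.univ_sum_single v]
    apply Submodule.sum_mem
    intro i _
    by_cases hi : ∃ r ∈ N.reactions, σ r.1 = i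
    · obtain ⟨r, hr, hne⟩ := exists_changing hσ hi
      have hl : σ r.1 = i := label_eq_of_ne hσ hr hne
      have hn : ((r.2 i : ℝ) - (r.1 i : ℝ)) ≠ 0 := by
        intro h
        apply hne
        have : (r.2 i : ℝ) = r.1 i := by linarith
        exact_mod_cast this.symm
      have hrv : reactionVector r = Pi.single i ((r.2 i : ℝ) - (r.1 i : ℝ)) := by
        funext j
        by_cases hj : j = i
        · subst hj; simp [reactionVector]
        · have : r.1 j = r.2 j := (hσ r hr).2 j (by rw [hl]; exact hj)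
          simp [reactionVector, this, hj]
      have hmem : reactionVector r ∈ N.stoichSubspace :=
        Submodule.subset_span ⟨r, hr, rfl⟩
      have : (Pi.single i (v i) : Fin d → ℝ)
          = (v i / ((r.2 i : ℝ) - (r.1 i : ℝ))) • reactionVector r := by
        rw [hrv, ← Pi.single_smul, smul_eq_mul, div_mul_cancel₀ _ hn]
      rw [this]
      exact Submodule.smul_mem _ _ hmem
    · rw [hv i hi]
      simp

theorem axis_permanent (hwr : N.WeaklyReversible) (hσ : AxisLabel N σ)
    (hk : ∀ r ∈ N.reactions, 0 < k r) (c : Fin d → ℝ) (hc : ∀ i, 0 < c i) :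
    PermanentOn (N.massAction k) (N.posClass c) := by
  classical
  set f := N.massAction k with hf
  set act : Fin d → Prop := fun i => ∃ r ∈ N.reactions, σ r.1 = i with hact
  set lo : Fin d → ℝ := fun i => 1 / (axisConst N k i + 1) with hlo
  set hi : Fin d → ℝ := fun i => axisConst N k i + 1 with hhi
  have hC : ∀ i, 0 ≤ axisConst N k i := axisConst_nonneg hk
  have hlopos : ∀ i, 0 < lo i := fun i => by
    have := hC i
    simp only [hlo]; positivity
  have hlohi : ∀ i, lo i ≤ hi i := fun i => by
    have := hC i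
    simp only [hlo, hhi]
    rw [div_le_iff₀ (by linarith)]
    nlinarith
  have hcd : ContDiff ℝ 1 f := massAction_contDiff N k
  -- the box attached to an initial point
  have hbox : ∀ x0 : Fin d → ℝ, (∀ i, 0 < x0 i) →
      BoxHyp f (fun i => if act i then min (x0 i) (lo i) else x0 i)
        (fun i => if act i then max (x0 i) (hi i) else x0 i) lo hi act ∧
      x0 ∈ Icc (fun i => if act i then min (x0 i) (lo i) else x0 i)
        (fun i => if act i then max (x0 i) (hi i) else x0 i) ∧
      ∀ x ∈ Icc (fun i => if act i then min (x0 i) (lo i) else x0 i)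
        (fun i => if act i then max (x0 i) (hi i) else x0 i), ∀ i, 0 < x i := by
    intro x0 hx0
    have hpos : ∀ x ∈ Icc (fun i => if act i then min (x0 i) (lo i) else x0 i)
        (fun i => if act i then max (x0 i) (hi i) else x0 i), ∀ i, 0 < x i := by
      intro x hx i
      have h1 := hx.1 i
      by_cases hi' : act i
      · simp only [hi', if_true] at h1
        exact lt_of_lt_of_le (lt_min (hx0 i) (hlopos i)) h1
      · simp only [hi', if_false] at h1
        exact lt_of_lt_of_le (hx0 i) h1
    refine ⟨⟨?_, ?_, ?_, ?_, ?_, ?_, ?_⟩, ⟨?_, ?_⟩, hpos⟩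
    · intro i
      by_cases hi' : act i
      · simp only [hi', if_true]
        exact (min_le_left _ _).trans (le_max_left _ _)
      · simp only [hi', if_false]; exact le_rfl
    · have hll : LocallyLipschitzOn (Icc (fun i => if act i then min (x0 i) (lo i) else x0 i)
        (fun i => if act i then max (x0 i) (hi i) else x0 i)) f :=
        hcd.locallyLipschitz.locallyLipschitzOn
      exact hll.exists_lipschitzOnWith_of_compact isCompact_Icc
    · intro i hi' x hx hxi
      exact massAction_pos_of_small hwr hσ hk hi' (hpos x hx) hxi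
    · intro i hi' x hx hxi
      exact massAction_neg_of_large hwr hσ hk hi' (hpos x hx) hxi
    · intro i hi'
      simp only [hi', if_true]
      exact min_le_right _ _
    · intro i hi'
      simp only [hi', if_true]
      exact le_max_right _ _
    · intro i hi' x _
      exact massAction_eq_zero_of_inactive hσ hi' x
    · intro i
      by_cases hi' : act i
      · simp only [hi', if_true]; exact min_le_left _ _
      · simp only [hi', if_false]; exact le_rfl
    · intro i
      by_cases hi' : act i
      · simp only [hi', if_true]; exact le_max_left _ _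
      · simp only [hi', if_false]; exact le_rfl
  -- uniqueness against a global solution
  have huniq : ∀ (α z : ℝ → Fin d → ℝ) (T : ℝ), IsSolOn f α (Ici 0) → IsSolOn f z (Ico 0 T) →
      z 0 = α 0 → ∀ t ∈ Ico (0 : ℝ) T, z t = α t := by
    intro α z T hα hz h0
    exact sol_unique hcd hz (fun t ht => (hα t ht.1).mono (fun s hs => hs.1)) h0
  constructor
  · intro x0 hx0
    obtain ⟨hB, hmem0, hpos⟩ := hbox x0 hx0.1
    obtain ⟨α, hα0, hα, hαmem⟩ := hB.exists_sol hmem0
    refine ⟨α, hα0, hα, fun t ht => hpos _ (hαmem t ht), ?_⟩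
    intro T z hz0 hz
    exact huniq α z T hα hz (by rw [hz0, hα0])
  · refine ⟨Icc (fun i => if act i then lo i else c i) (fun i => if act i then hi i else c i),
      isCompact_Icc, ?_, ?_⟩
    · intro x hx
      refine ⟨fun i => ?_, ?_⟩
      · have h1 := hx.1 i
        by_cases hi' : act i
        · simp only [hi', if_true] at h1
          exact lt_of_lt_of_le (hlopos i) h1
        · simp only [hi', if_false] at h1
          exact lt_of_lt_of_le (hc i) h1
      · rw [mem_stoich_iff hσ]
        intro i hi'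
        have h1 := hx.1 i
        have h2 := hx.2 i
        have hi'' : ¬ act i := hi'
        simp only [hi'', if_false] at h1 h2
        simp only [Pi.sub_apply]
        linarith
    · intro x hx0 hx
      obtain ⟨hB, hmem0, hpos⟩ := hbox (x 0) hx0.1
      obtain ⟨α, hα0, hα, hαmem⟩ := hB.exists_sol hmem0
      have hxα : ∀ t, 0 ≤ t → x t = α t := by
        intro t ht
        exact huniq α x (t + 1) hα (fun s hs => (hx s hs.1).mono (fun r hr => hr.1))
          hα0.symm t ⟨ht, by linarith⟩
      have hxmem : ∀ t, 0 ≤ t → x t ∈ Icc (fun i => if act i then min (x 0 i) (lo i) else x 0 i)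
          (fun i => if act i then max (x 0 i) (hi i) else x 0 i) := by
        intro t ht
        rw [hxα t ht]
        exact hαmem t ht
      obtain ⟨⟨T, hT0, hT⟩, hin⟩ := hB.absorb hx hxmem
      refine ⟨T, fun t ht => ?_⟩
      have hS := (mem_stoich_iff hσ _).1 hx0.2
      constructor
      · intro i
        by_cases hi' : act i
        · simp only [hi', if_true]
          exact (hT t ht i hi').1
        · simp only [hi', if_false]
          have h1 := hin i hi' t (hT0.trans ht)
          have h2 := hS i hi'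
          simp only [Pi.sub_apply] at h2
          rw [h1]; linarith
      · intro i
        by_cases hi' : act i
        · simp only [hi', if_true]
          exact (hT t ht i hi').2
        · simp only [hi', if_false]
          have h1 := hin i hi' t (hT0.trans ht)
          have h2 := hS i hi'
          simp only [Pi.sub_apply] at h2
          rw [h1]; linarith

end Final

end Vale.Agent.Lib.P072
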