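import Mathlib

/-!
# Reaction networks, mass-action systems and permanence (conventions of problem P072)
-/

namespace Vale.Agent.Lib.P072

/-- A finite reaction network on `d` species: a finite set of complexes in `ℕ^d` and a finite set
of reactions `y → y'` between distinct complexes. -/
structure Network (d : ℕ) where
  complexes : Finset (Fin d → ℕ)
  reactions : Finset ((Fin d → ℕ) × (Fin d → ℕ))
  source_mem : ∀ r ∈ reactions, r.1 ∈ complexes
  target_mem : ∀ r ∈ reactions, r.2 ∈ complexes
  source_ne_target : ∀ r ∈ reactions, r.1 ≠ r.2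

variable {d : ℕ}

/-- Weak reversibility: for every reaction `y → y'` there is a directed path from `y'` to `y`. -/
def Network.WeaklyReversible (N : Network d) : Prop :=
  ∀ r ∈ N.reactions, Relation.ReflTransGen (fun a b => (a, b) ∈ N.reactions) r.2 r.1

/-- The reaction vector `y' - y` of a reaction `y → y'`. -/
def reactionVector (r : (Fin d → ℕ) × (Fin d → ℕ)) : Fin d → ℝ :=
  fun i => (r.2 i : ℝ) - (r.1 i : ℝ)

/-- The mass-action vector field `f(x) = ∑_{y → y'} k_{y → y'} x^y (y' - y)`. -/
noncomputable def Network.massAction (N : Network d) (k : (Fin d → ℕ) × (Fin d → ℕ) → ℝ)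
    (x : Fin d → ℝ) : Fin d → ℝ :=
  ∑ r ∈ N.reactions, (k r * ∏ i, x i ^ r.1 i) • reactionVector r

/-- The stoichiometric subspace `S = span {y' - y}`. -/
def Network.stoichSubspace (N : Network d) : Submodule ℝ (Fin d → ℝ) :=
  Submodule.span ℝ (reactionVector '' (N.reactions : Set ((Fin d → ℕ) × (Fin d → ℕ))))

/-- The positive stoichiometric class `(c + S) ∩ ℝ^d_{>0}`. -/
def Network.posClass (N : Network d) (c : Fin d → ℝ) : Set (Fin d → ℝ) :=
  {x | (∀ i, 0 < x i) ∧ x - c ∈ N.stoichSubspace}

/-- `x` solves `x' = f(x)` on the time set `I` (one-sided derivatives at end points of `I`). -/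
def IsSolOn (f : (Fin d → ℝ) → (Fin d → ℝ)) (x : ℝ → Fin d → ℝ) (I : Set ℝ) : Prop :=
  ∀ t ∈ I, HasDerivWithinAt x (f (x t)) I t

/-- Permanence of `x' = f(x)` on `P`: every initial point of `P` has a solution on `[0, ∞)` which
is positive, every solution on a time interval `[0, T)` from that point coincides with it, and
there is a compact `K ⊆ P` which every solution starting in `P` enters for good. -/
def PermanentOn (f : (Fin d → ℝ) → (Fin d → ℝ)) (P : Set (Fin d → ℝ)) : Prop :=
  (∀ x0 ∈ P, ∃ x : ℝ → Fin d → ℝ, x 0 = x0 ∧ IsSolOn f x (Set.Ici 0) ∧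
      (∀ t, 0 ≤ t → ∀ i, 0 < x t i) ∧
      ∀ (T : ℝ) (z : ℝ → Fin d → ℝ), z 0 = x0 → IsSolOn f z (Set.Ico 0 T) →
        ∀ t ∈ Set.Ico 0 T, z t = x t) ∧
  ∃ K : Set (Fin d → ℝ), IsCompact K ∧ K ⊆ P ∧
    ∀ x : ℝ → Fin d → ℝ, x 0 ∈ P → IsSolOn f x (Set.Ici 0) → ∃ T : ℝ, ∀ t, T ≤ t → x t ∈ K

/-- `σ` assigns to every complex a species in such a way that each reaction `y → y'` joins two
complexes with the same label and changes only the amount of the labelled species.  Thus the label
is constant on every linkage class, and every linkage class lies on a line parallel to the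
coordinate axis of its label; the other species occur in it only as catalysts. -/
def AxisLabel (N : Network d) (σ : (Fin d → ℕ) → Fin d) : Prop :=
  ∀ r ∈ N.reactions, σ r.1 = σ r.2 ∧ ∀ j, j ≠ σ r.1 → r.1 j = r.2 j

end Vale.Agent.Lib.P072
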